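import Vale.Agent.P166.Main

namespace Vale.Agent.Results.P166.Pressure

open MeasureTheory Filter Topology Vale.Agent.P166

theorem result (β : ℝ) (hβ : 0 ≤ β) (μ : Measure ℝ) [IsProbabilityMeasure μ] (a b : ℝ)
    (ha : IsLeast μ.support a) (hb : IsGreatest μ.support b)
    (lam : (N : ℕ) → Fin N → ℝ)
    (hweak : ∀ f : BoundedContinuousFunction ℝ ℝ,
      Tendsto (fun N : ℕ => (N : ℝ)⁻¹ * ∑ i, f (lam N i)) atTop (𝓝 (∫ x, f x ∂μ)))
    (hmin : Tendsto (fun N => ⨅ i, lam N i) atTop (𝓝 a))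
    (hmax : Tendsto (fun N => ⨆ i, lam N i) atTop (𝓝 b))
    [∀ N, MeasurableSpace (Matrix.orthogonalGroup (Fin N) ℝ)]
    [∀ N, BorelSpace (Matrix.orthogonalGroup (Fin N) ℝ)]
    (ν : (N : ℕ) → Measure (Matrix.orthogonalGroup (Fin N) ℝ))
    [∀ N, IsProbabilityMeasure (ν N)] [∀ N, (ν N).IsHaarMeasure] :
    ∃ p : ℝ, Tendsto (parisi μ b β) atTop (𝓝 (p : EReal)) ∧
      Tendsto (fun N => ∫ U, pressure N β (lam N) U ∂ν N) atTop (𝓝 p) ∧
      ∀ ε : ℝ, 0 < ε →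
        Summable fun N => (ν N).real {U | ε ≤ |pressure N β (lam N) U - p|} :=
  main_of_core coreUpper coreLower β hβ μ a b ha hb lam hweak hmin hmax ν

end Vale.Agent.Results.P166.Pressure
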